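import Mathlib

/-!
# S0066, package F4a: disjoint 4-cycles (generic Finset counting lemma)

If every 4-cycle `u — u' — w — w'` (`u ∈ U`, `w ∈ W`, `u' ∈ U'`, `w' ∈ W'`, with `U, W` disjoint
and `U', W'` disjoint, all four sets of size at least `m`) meets `D`, then `m * m ≤ |D|`:
the `m²` cycles `(u_a, w_a, u'_b, w'_b)` are pairwise cell-disjoint.
-/

set_option autoImplicit false

namespace Crest.Agent.Helper50.S0066

/-- **F4a.** Disjoint 4-cycles: if every 4-cycle `u — u' — w — w'` meets `D`, then `|D| ≥ m²`. -/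
theorem four_cycle_count {α β : Type*} [DecidableEq α] [DecidableEq β]
    (U W : Finset α) (U' W' : Finset β) (hUW : Disjoint U W) (hUW' : Disjoint U' W') (m : ℕ)
    (hU : m ≤ U.card) (hW : m ≤ W.card) (hU' : m ≤ U'.card) (hW' : m ≤ W'.card)
    (D : Finset (α × β))
    (hD : ∀ u ∈ U, ∀ w ∈ W, ∀ u' ∈ U', ∀ w' ∈ W',
      (u, u') ∈ D ∨ (u, w') ∈ D ∨ (w, u') ∈ D ∨ (w, w') ∈ D) :
    m * m ≤ D.card := by
  classical
  obtain ⟨U0, hU0, hU0c⟩ := Finset.exists_subset_card_eq hU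
  obtain ⟨W0, hW0, hW0c⟩ := Finset.exists_subset_card_eq hW
  obtain ⟨U0', hU0', hU0c'⟩ := Finset.exists_subset_card_eq hU'
  obtain ⟨W0', hW0', hW0c'⟩ := Finset.exists_subset_card_eq hW'
  -- enumerations of the four `m`-sets
  let eu : Fin m ≃ U0 := (U0.equivFinOfCardEq hU0c).symm
  let ew : Fin m ≃ W0 := (W0.equivFinOfCardEq hW0c).symm
  let eu' : Fin m ≃ U0' := (U0'.equivFinOfCardEq hU0c').symm
  let ew' : Fin m ≃ W0' := (W0'.equivFinOfCardEq hW0c').symm
  have huU : ∀ a, (eu a : α) ∈ U := fun a => hU0 (eu a).2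
  have hwW : ∀ a, (ew a : α) ∈ W := fun a => hW0 (ew a).2
  have huU' : ∀ b, (eu' b : β) ∈ U' := fun b => hU0' (eu' b).2
  have hwW' : ∀ b, (ew' b : β) ∈ W' := fun b => hW0' (ew' b).2
  -- every cycle contains a cell of `D`
  have key : ∀ ab : Fin m × Fin m, ∃ d ∈ D,
      (d.1 = (eu ab.1 : α) ∨ d.1 = (ew ab.1 : α)) ∧
      (d.2 = (eu' ab.2 : β) ∨ d.2 = (ew' ab.2 : β)) := by
    rintro ⟨a, b⟩
    rcases hD _ (huU a) _ (hwW a) _ (huU' b) _ (hwW' b) with h | h | h | h
    · exact ⟨_, h, Or.inl rfl, Or.inl rfl⟩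
    · exact ⟨_, h, Or.inl rfl, Or.inr rfl⟩
    · exact ⟨_, h, Or.inr rfl, Or.inl rfl⟩
    · exact ⟨_, h, Or.inr rfl, Or.inr rfl⟩
  choose f hfD hf1 hf2 using key
  -- the first coordinate determines `a`, the second determines `b`
  have h1 : ∀ a a' : Fin m, ∀ x : α, (x = (eu a : α) ∨ x = (ew a : α)) →
      (x = (eu a' : α) ∨ x = (ew a' : α)) → a = a' := by
    intro a a' x h h'
    rcases h with h | h <;> rcases h' with h' | h'
    · exact eu.injective (Subtype.ext (h.symm.trans h'))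
    · exact absurd (h' ▸ hwW a') (Finset.disjoint_left.mp hUW (h ▸ huU a))
    · exact absurd (h ▸ hwW a) (Finset.disjoint_left.mp hUW (h' ▸ huU a'))
    · exact ew.injective (Subtype.ext (h.symm.trans h'))
  have h2 : ∀ b b' : Fin m, ∀ y : β, (y = (eu' b : β) ∨ y = (ew' b : β)) →
      (y = (eu' b' : β) ∨ y = (ew' b' : β)) → b = b' := by
    intro b b' y h h'
    rcases h with h | h <;> rcases h' with h' | h'
    · exact eu'.injective (Subtype.ext (h.symm.trans h'))
    · exact absurd (h' ▸ hwW' b') (Finset.disjoint_left.mp hUW' (h ▸ huU' b))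
    · exact absurd (h ▸ hwW' b) (Finset.disjoint_left.mp hUW' (h' ▸ huU' b'))
    · exact ew'.injective (Subtype.ext (h.symm.trans h'))
  have hinj : Function.Injective f := by
    rintro ⟨a, b⟩ ⟨a', b'⟩ hEq
    have ha : a = a' := h1 a a' (f (a, b)).1 (hf1 (a, b)) (hEq ▸ hf1 (a', b'))
    have hb : b = b' := h2 b b' (f (a, b)).2 (hf2 (a, b)) (hEq ▸ hf2 (a', b'))
    rw [ha, hb]
  have hcard : (Finset.univ : Finset (Fin m × Fin m)).card ≤ D.card :=
    Finset.card_le_card_of_injOn f (fun ab _ => hfD ab) (fun x _ y _ hxy => hinj hxy)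
  simpa [Finset.card_univ, Fintype.card_prod] using hcard

end Crest.Agent.Helper50.S0066
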